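import Vale.Agent.H11.P64.Defs

namespace Vale.Agent.H11.P64.A1
open Finset Classical Vale.Agent.H2.P064 Vale.Agent.H11.P64

variable {n : ℕ}

theorem tch_symm {e f : EX n} (h : tch e f) : tch f e := by
  obtain ⟨v, h1, h2⟩ := h; exact ⟨v, h2, h1⟩

theorem tch_self (e : EX n) : tch e e := by
  obtain ⟨e, he⟩ := e
  induction e using Sym2.inductionOn with
  | _ x y => exact ⟨x, by simp, by simp⟩

theorem deg_le (F : Finset (EX n)) (Δ : ℕ) (hF : DegLe F Δ) (e : EX n) :
    (F.filter (fun f => tch e f)).card ≤ 2 * Δ := by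
  obtain ⟨e, he⟩ := e
  induction e using Sym2.inductionOn with
  | _ x y =>
    have h : F.filter (fun f => tch ⟨s(x, y), he⟩ f) ⊆
        F.filter (fun f => x ∈ f.1) ∪ F.filter (fun f => y ∈ f.1) := by
      intro f hf
      rw [mem_filter] at hf
      obtain ⟨hf, v, hv, hvf⟩ := hf
      simp only [Sym2.mem_iff] at hv
      rw [mem_union, mem_filter, mem_filter]
      rcases hv with rfl | rfl
      · exact Or.inl ⟨hf, hvf⟩
      · exact Or.inr ⟨hf, hvf⟩
    refine (Finset.card_le_card h).trans ((Finset.card_union_le _ _).trans ?_)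
    have := hF x; have := hF y; omega

/-- walks -/
noncomputable def wk (F : Finset (EX n)) : ℕ → EX n → Finset (List (EX n))
  | 0, e => {[e]}
  | m + 1, e => (F.filter (fun f => tch e f)).biUnion (fun f => (wk F m f).image (List.cons e))

theorem card_wk (F : Finset (EX n)) (Δ : ℕ) (hF : DegLe F Δ) (m : ℕ) (e : EX n) :
    (wk F m e).card ≤ (2 * Δ) ^ m := by
  induction m generalizing e with
  | zero => simp [wk]
  | succ m ih =>
    rw [wk]
    refine card_biUnion_le.trans ?_
    calc ∑ f ∈ F.filter (fun f => tch e f), ((wk F m f).image (List.cons e)).card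
        ≤ ∑ f ∈ F.filter (fun f => tch e f), (2 * Δ) ^ m :=
          Finset.sum_le_sum (fun f _ => card_image_le.trans (ih f))
      _ = (F.filter (fun f => tch e f)).card * (2 * Δ) ^ m := by
          rw [Finset.sum_const, smul_eq_mul]
      _ ≤ (2 * Δ) * (2 * Δ) ^ m := Nat.mul_le_mul_right _ (deg_le F Δ hF e)
      _ = (2 * Δ) ^ (m + 1) := by rw [pow_succ]; ring

theorem mem_wk_succ {F : Finset (EX n)} {m : ℕ} {e f : EX n} {w : List (EX n)} (hf : f ∈ F)
    (ht : tch e f) (hw : w ∈ wk F m f) : e :: w ∈ wk F (m + 1) e := by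
  rw [wk, mem_biUnion]
  exact ⟨f, mem_filter.2 ⟨hf, ht⟩, mem_image.2 ⟨w, hw, rfl⟩⟩

theorem detour (F : Finset (EX n)) (f : EX n) (hf : f ∈ F) (x : EX n) (hx : x ∈ F)
    (ht : tch x f) (m : ℕ) : ∀ (e : EX n) (w : List (EX n)), w ∈ wk F m e → x ∈ w →
    ∃ w' ∈ wk F (m + 2) e, w'.toFinset = insert f w.toFinset := by
  induction m with
  | zero =>
    intro e w hw hxw
    simp only [wk, mem_singleton] at hw
    subst hw
    simp only [List.mem_singleton] at hxw
    subst hxw
    refine ⟨[x, f, x], ?_, ?_⟩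
    · exact mem_wk_succ hf ht (mem_wk_succ hx (tch_symm ht) (by simp [wk]))
    · ext y; simp <;> tauto
  | succ m ih =>
    intro e w hw hxw
    have hw0 := hw
    rw [wk, mem_biUnion] at hw
    obtain ⟨g, hg, hw⟩ := hw
    rw [mem_image] at hw
    obtain ⟨t, ht', rfl⟩ := hw
    rw [mem_filter] at hg
    by_cases hxe : x = e
    · subst hxe
      refine ⟨x :: f :: x :: t, ?_, ?_⟩
      · exact mem_wk_succ hf ht (mem_wk_succ hx (tch_symm ht) hw0)
      · ext y; simp <;> tauto
    · have hxt : x ∈ t := by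
        rcases List.mem_cons.1 hxw with h | h
        · exact absurd h hxe
        · exact h
      obtain ⟨t', h1, h2⟩ := ih g t ht' hxt
      refine ⟨e :: t', mem_wk_succ hg.1 hg.2 h1, ?_⟩
      rw [List.toFinset_cons, h2, List.toFinset_cons]
      ext y; simp <;> tauto

theorem cover (F : Finset (EX n)) (C : Finset (EX n)) (hC : Cn C) :
    C ⊆ F → ∀ e ∈ C, ∃ w ∈ wk F (2 * (C.card - 1)) e, w.toFinset = C := by
  induction hC with
  | one e0 =>
    intro _ e he
    rw [mem_singleton] at he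
    subst he
    exact ⟨[e], by simp [wk], by simp⟩
  | add S e0 f hS he0 ht hfS ih =>
    intro hSF e he
    have hSF' : S ⊆ F := (Finset.subset_insert _ _).trans hSF
    have hfF : f ∈ F := hSF (mem_insert_self _ _)
    have hc : 1 ≤ S.card := Finset.card_pos.2 ⟨e0, he0⟩
    have hcard : 2 * ((insert f S).card - 1) = 2 * (S.card - 1) + 2 := by
      rw [card_insert_of_notMem hfS]; omega
    rw [hcard]
    rcases mem_insert.1 he with h | h
    · subst h
      obtain ⟨w, hw, hwS⟩ := ih hSF' e0 he0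
      refine ⟨e :: e :: w, ?_, ?_⟩
      · exact mem_wk_succ hfF (tch_self e) (mem_wk_succ (hSF' he0) (tch_symm ht) hw)
      · rw [List.toFinset_cons, List.toFinset_cons, hwS]; simp
    · obtain ⟨w, hw, hwS⟩ := ih hSF' e h
      obtain ⟨w', hw', h'⟩ := detour F f hfF e0 (hSF' he0) ht _ e w hw
        (by rw [← List.mem_toFinset, hwS]; exact he0)
      exact ⟨w', hw', by rw [h', hwS]⟩

theorem A1 (F : Finset (EX n)) (Δ : ℕ) (hF : DegLe F Δ) (e : EX n) (s : ℕ) (hs : 1 ≤ s) :
    ((cns F).filter (fun C => e ∈ C ∧ C.card = s)).card ≤ ((2 * Δ) ^ 2) ^ s := by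
  by_cases heF : e ∈ F
  · have hΔ : 1 ≤ Δ := by
      obtain ⟨v, hv, _⟩ := tch_self e
      have h1 := hF v
      have h2 : 0 < (F.filter (fun f => v ∈ f.1)).card :=
        Finset.card_pos.2 ⟨e, mem_filter.2 ⟨heF, hv⟩⟩
      omega
    have hsub : (cns F).filter (fun C => e ∈ C ∧ C.card = s) ⊆
        (wk F (2 * (s - 1)) e).image List.toFinset := by
      intro C hC
      rw [mem_filter, cns, mem_filter, mem_powerset] at hC
      obtain ⟨⟨h1, h2⟩, h3, h4⟩ := hC
      obtain ⟨w, hw, hwC⟩ := cover F C h2 h1 e h3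
      rw [h4] at hw
      exact mem_image.2 ⟨w, hw, hwC⟩
    refine (Finset.card_le_card hsub).trans (card_image_le.trans ((card_wk F Δ hF _ e).trans ?_))
    rw [← pow_mul]
    exact Nat.pow_le_pow_right (by omega) (by omega)
  · have : (cns F).filter (fun C => e ∈ C ∧ C.card = s) = ∅ := by
      rw [Finset.filter_eq_empty_iff]
      intro C hC h
      rw [cns, mem_filter, mem_powerset] at hC
      exact heF (hC.1 h.1)
    rw [this]; simp

end Vale.Agent.H11.P64.A1
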