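import Vale.Agent.H2.P064.Boot

/-! P064, bounded degree: definitions. -/

namespace Vale.Agent.H11.P64
open Finset Classical Vale.Agent.H2.P064

variable {n : ℕ}

/-- vertex set of an edge set -/
noncomputable def vs (A : Finset (EX n)) : Finset (Fin n) :=
  univ.filter (fun v => ∃ e ∈ A, v ∈ e.1)

/-- two edges touch -/
def tch (e f : EX n) : Prop := ∃ v, v ∈ e.1 ∧ v ∈ f.1

/-- degree bound -/
def DegLe (H : Finset (EX n)) (Δ : ℕ) : Prop :=
  ∀ v : Fin n, (H.filter (fun e => v ∈ e.1)).card ≤ Δ

theorem DegLe.mono {H F : Finset (EX n)} {Δ : ℕ} (h : DegLe H Δ) (hF : F ⊆ H) : DegLe F Δ :=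
  fun v => (Finset.card_le_card (Finset.filter_subset_filter _ hF)).trans (h v)

/-- connected edge sets: built edge by edge -/
inductive Cn : Finset (EX n) → Prop
  | one (e : EX n) : Cn {e}
  | add (S : Finset (EX n)) (e f : EX n) : Cn S → e ∈ S → tch e f → f ∉ S → Cn (insert f S)

/-- the connected subsets of `F` -/
noncomputable def cns (F : Finset (EX n)) : Finset (Finset (EX n)) := F.powerset.filter Cn

/-- probability that a uniformly random map `Fin n → Fin n` is injective on the vertices of `A`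
and sends `A` into `F` -/
noncomputable def pf (F A : Finset (EX n)) : ℝ :=
  ((univ.filter (fun γ : Fin n → Fin n => Set.InjOn γ (vs A) ∧
    ∀ e ∈ A, ∃ f ∈ F, Sym2.map γ e.1 = f.1)).card : ℝ) / (n : ℝ) ^ n

end Vale.Agent.H11.P64
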