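import Vale.Agent.H11.P64.Defs

/-! P064, bounded degree: row statements (prove each in its own file, see table p064bd). -/

namespace Vale.Agent.H11.P64.Stubs
open Finset Classical Vale.Agent.H2.P064 Vale.Agent.H11.P64

variable {n : ℕ}

/-- A1. connected sets through an edge: closed walk of length 2(s-1) in the touching relation. -/
theorem A1 (F : Finset (EX n)) (Δ : ℕ) (hF : DegLe F Δ) (e : EX n) (s : ℕ) (hs : 1 ≤ s) :
    ((cns F).filter (fun C => e ∈ C ∧ C.card = s)).card ≤ ((2 * Δ) ^ 2) ^ s := sorry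

/-- A2. -/
theorem A2 (F : Finset (EX n)) (Δ : ℕ) (hF : DegLe F Δ) (s : ℕ) (hs : 1 ≤ s) :
    ((cns F).filter (fun C => C.card = s)).card ≤ ((2 * Δ) ^ 2) ^ s * F.card := sorry

/-- A3. a connected set with `s` edges has at most `s+1` vertices. -/
theorem A3 (C : Finset (EX n)) (hC : Cn C) : (vs C).card ≤ C.card + 1 := sorry

/-- A4. images of connected sets are connected. -/
theorem A4 (C : Finset (EX n)) (hC : Cn C) (g : Equiv.Perm (Fin n)) : Cn (im (act n) g C) := sorry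

/-- B1. (abstract) pairwise disjoint members of an invariant family inside `H`. Proof: U = union of
`CC`; an image of U is the union of `m` members of `GG`, so `N univ U ≤ choose |GG| m ≤ |GG|^m/m!`,
and `m! ≥ (m/e)^m`. -/
theorem B1 {X G : Type} [Fintype X] [Group G] [Fintype G] (a : G →* Equiv.Perm X)
    (q : ℝ) (hq : 0 < q) (H : Finset X) (hH : Hyp a q H) (s : ℕ) (hs : 1 ≤ s)
    (GG CC : Finset (Finset X)) (hG : ∀ S ∈ GG, ∀ g : G, im a g S ∈ GG)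
    (hC : CC ⊆ GG) (hCH : ∀ C ∈ CC, C ⊆ H) (hCs : ∀ C ∈ CC, C.card = s)
    (hdis : ∀ C ∈ CC, ∀ C' ∈ CC, C ≠ C' → Disjoint C C') :
    (CC.card : ℝ) ≤ 6 * (GG.card * q ^ s) := sorry

/-- B2. number of connected members of an invariant family of `s`-sets inside `F`:
maximal disjoint subfamily + A1. -/
theorem B2 (F : Finset (EX n)) (Δ : ℕ) (hF : DegLe F Δ) (q : ℝ) (hq : 0 < q)
    (hH : Hyp (act n) q F) (s : ℕ) (hs : 1 ≤ s) (GG : Finset (Finset (EX n)))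
    (hG : ∀ S ∈ GG, ∀ g : Equiv.Perm (Fin n), im (act n) g S ∈ GG) :
    ((((cns F).filter (fun C => C.card = s ∧ C ∈ GG)).card : ℕ) : ℝ) ≤
      6 * s * (((2 * Δ) ^ 2 : ℕ) : ℝ) ^ s * (GG.card * q ^ s) := sorry

/-- B3. (B2 for the orbit of C, A4, P_mul_N) -/
theorem B3 (F : Finset (EX n)) (Δ : ℕ) (hF : DegLe F Δ) (q : ℝ) (hq : 0 < q)
    (hH : Hyp (act n) q F) (s : ℕ) (hs : 1 ≤ s) (C : Finset (EX n)) (hC : Cn C)
    (hCs : C.card = s) :
    P (act n) F C ≤ 6 * s * (((2 * Δ) ^ 2 : ℕ) : ℝ) ^ s * q ^ s := sorry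

/-- B4. (A2, A4, P_mul_N and C3) -/
theorem B4 (F : Finset (EX n)) (Δ : ℕ) (hF : DegLe F Δ) (s : ℕ) (hs : 1 ≤ s)
    (C : Finset (EX n)) (hC : Cn C) (hCs : C.card = s) :
    P (act n) F C ≤ (((2 * Δ) ^ 2 : ℕ) : ℝ) ^ s * F.card *
      ((vs C).card : ℝ) ^ (vs C).card / (n : ℝ) ^ (vs C).card := sorry

/-- C1. vertex set of an image -/
theorem C1 (C : Finset (EX n)) (g : Equiv.Perm (Fin n)) :
    vs (im (act n) g C) = (vs C).map g.toEmbedding := sorry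

/-- C2. number of edge sets with `r` vertices and `s` edges. -/
theorem C2 (r s : ℕ) :
    (((univ : Finset (Finset (EX n))).filter (fun C => (vs C).card = r ∧ C.card = s)).card : ℝ) ≤
      (n : ℝ) ^ r * ((r : ℝ) ^ 2) ^ s := sorry

/-- C3. number of copies in K_n: every `r`-set of vertices is the vertex set of some image. -/
theorem C3 (C : Finset (EX n)) :
    (n : ℝ) ^ (vs C).card ≤ ((vs C).card : ℝ) ^ (vs C).card * (N (act n) univ C : ℝ) := sorry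

/-- E1. from permutations to maps -/
theorem E1 (F A : Finset (EX n)) : P (act n) F A ≤ Real.exp (vs A).card * pf F A := sorry

/-- E2. -/
theorem E2 (F A : Finset (EX n)) : pf F A ≤ P (act n) F A := sorry

/-- E3. independence -/
theorem E3 (F A B : Finset (EX n)) (h : Disjoint (vs A) (vs B)) :
    pf F (A ∪ B) ≤ pf F A * pf F B := sorry

/-- E4. components -/
theorem E4 (A : Finset (EX n)) : ∃ CC : Finset (Finset (EX n)), (∀ C ∈ CC, Cn C) ∧
    (∀ C ∈ CC, ∀ C' ∈ CC, C ≠ C' → Disjoint (vs C) (vs C')) ∧ CC.biUnion id = A := sorry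

/-- E5. cluster bound -/
theorem E5 (F : Finset (EX n)) (lam : ℝ) (hl : 0 < lam) :
    D (act n) lam F ≤ Real.exp (∑ C ∈ cns F, (8 / lam) ^ C.card * P (act n) F C) := sorry

/-- the class bound -/
noncomputable def cb (K L : ℝ) (n : ℕ) (q : ℝ) (f : ℝ) (r s : ℕ) : ℝ :=
  (K / L) ^ s * min 1 (min (((s : ℝ) + 1) ^ (s + 1) * f / ((n : ℝ) ^ r * q ^ s))
    (((s : ℝ) + 1) ^ (2 * s) * ((n : ℝ) ^ r * q ^ s) / f))

/-- F1. grouping: K = 2^11 (2Δ)^4 -/
theorem F1 (F : Finset (EX n)) (Δ : ℕ) (hF : DegLe F Δ) (q : ℝ) (hq : 0 < q) (L : ℝ) (hL : 0 < L)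
    (hH : Hyp (act n) q F) (hFn : F.Nonempty) :
    ∑ C ∈ cns F, (8 / (L * q)) ^ C.card * P (act n) F C ≤
      F.card * ∑ s ∈ Icc 1 F.card, ∑ r ∈ range (s + 2),
        cb (2 ^ 11 * (((2 * Δ) ^ 4 : ℕ) : ℝ)) L n q F.card r s := sorry

/-- F2. summing over dyadic scales -/
theorem F2 (n : ℕ) (hn : 2 ≤ n) (q : ℝ) (hq : 0 < q) (K L : ℝ) (hK : 1 ≤ K) (hL : 2 ^ 10 * K ≤ L)
    (I : ℕ) (φ : ℕ → ℝ) (hφ : ∀ i, 2 ^ i ≤ φ i ∧ φ i < 2 ^ (i + 1)) (S : ℕ) :
    ∑ i ∈ range I, ∑ s ∈ Icc 1 S, ∑ r ∈ range (s + 2), cb K L n q (φ i) r s ≤ 1 := sorry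

/-- G1. main spread bound (helper7's ODE lemma + second_moment + E5 + F1 + F2): `Λ` universal. -/
theorem G1 (Δ : ℕ) : ∃ Λ : ℝ, 1 ≤ Λ ∧ ∀ (n : ℕ), 2 ≤ n → ∀ (H : Finset (EX n)) (q : ℝ), 0 < q →
    DegLe H Δ → Hyp (act n) q H → ∀ U ⊆ H, P (act n) H U ≤ (Λ * q) ^ U.card := sorry

end Vale.Agent.H11.P64.Stubs
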